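import Vale.Agent.P032.S5.H225.Germ
import Vale.Agent.P032.S5.H585.Pinch

/-!
# P032: a harmless neighbour `v`, `T v = {a, b, e, f}`, of a two-pair centre `z = {a, b | c, d}`

`Irr.harm_over`: over every exact `cd`-point `g` of `S(z)` the point `v + g - z` of `S(v)` has no
colour `c`, `d`, hence its palette is contained in `T v` and contains the arc pair `A` of `v`.

`Irr.harm_end`: if `e ∈ A`, every point `y` of `S(z)` with `T y ⊆ {c, d, e}` which is a limit of
exact `cd`-points has `4 ≤ |T (v + y - z)|`; this point has the colours of `A`, one of `c`, `d` and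
a further colour of `T v`.
-/

open Set Filter Topology Metric

noncomputable section

namespace Vale.Agent.P032.Six

section gen

variable {k : ℕ} {U : Fin k → Set ℂ} {T : ℂ → Set (Fin k)}

/-- limits of exact `ab`-points of `S(z)`: the arc pair of `v` is not `ab` -/
theorem Irr.harm_acc (h : Irr U T) {z v : ℂ} {A P : Set (Fin k)} (hv : Harm T v A)
    (hP : P.ncard ≤ 3) (hacc : ∃ᶠ q in 𝓝[sphere z 1] v, T q = P) : A ≠ P := by
  rintro rfl
  obtain ⟨p, hp, hJ⟩ := hv.arc
  have hpA : T p = A := hJ.self_of_nhdsWithin hp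
  obtain ⟨q, hq, hq2⟩ := (hacc.and_eventually
    (mem_nhdsWithin_of_mem_nhds (h.no_layer (z := v) (q := p) hp))).exists
  have := hq2 (by rw [hpA, hq])
  rw [hq] at this
  omega

/-- over an exact point `g` of `S(z)` the colours of `T g` are absent at `v + g - z` -/
theorem Irr.over_absent (h : Irr U T) {z v g : ℂ} {P : Set (Fin k)} (hg : Arc T z g P)
    (hv : dist v z = 1) (hgv : g ≠ v) (hgv2 : g + v ≠ 2 * z) :
    ∀ i ∈ P, i ∉ Pal U (v + g - z) := by
  intro i hi hcon
  have h1 : dist g (v + g - z) = 1 := by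
    rw [dist_comm, dist_eq_norm, show v + g - z - g = v - z by ring, ← dist_eq_norm]
    exact hv
  rcases h.mx.partner_line hg.1 (hg.2.mono fun q hq => h.sub q (by rw [hq]; exact hi)) h1 hcon
    with h2 | h2
  · exact hgv2 (by linear_combination h2)
  · exact hgv (by linear_combination -h2)

end gen

variable {U : Fin 6 → Set ℂ} {T : ℂ → Set (Fin 6)}

theorem pos_line {z v g : ℂ} (hv : dist v z = 1) (hg : dist g z = 1) :
    dist (v + g - z) v = 1 ∧ dist (v + g - z) g = 1 := by
  constructor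
  · rw [dist_eq_norm, show v + g - z - v = g - z by ring, ← dist_eq_norm]; exact hg
  · rw [dist_eq_norm, show v + g - z - g = v - z by ring, ← dist_eq_norm]; exact hv

/-- **over an exact `cd`-point** the palette is between `A` and `T v` -/
theorem Irr.harm_over (h : Irr U T) {z v g : ℂ} {a b c d e f : Fin 6} {A : Set (Fin 6)}
    (hall : ∀ i : Fin 6, i = a ∨ i = b ∨ i = c ∨ i = d ∨ i = e ∨ i = f)
    (hv : Harm T v A) (hTv : T v = {a, b, e, f}) (hvz : dist v z = 1)
    (hg : Arc T z g {c, d}) (hgv : g ≠ v) (hgv2 : g + v ≠ 2 * z) :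
    c ∉ Pal U (v + g - z) ∧ d ∉ Pal U (v + g - z) ∧ T (v + g - z) ⊆ T v ∧ A ⊆ T (v + g - z) := by
  have h1 := h.over_absent hg hvz hgv hgv2
  have hc : c ∉ Pal U (v + g - z) := h1 c (by simp)
  have hd : d ∉ Pal U (v + g - z) := h1 d (by simp)
  have h2 : T (v + g - z) ⊆ T v := by
    intro i hi
    rw [hTv]
    rcases hall i with rfl | rfl | rfl | rfl | rfl | rfl
    · simp
    · simp
    · exact absurd (h.sub _ hi) hc
    · exact absurd (h.sub _ hi) hd
    · simp
    · simp
  exact ⟨hc, hd, h2, hv.h1 _ (pos_line hvz hg.1).1 h2⟩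

/-- limits: over a limit of exact `cd`-points there are the colours of `A` -/
theorem Irr.harm_over_lim (h : Irr U T) {z v y : ℂ} {a b c d e f : Fin 6} {A : Set (Fin 6)}
    (hall : ∀ i : Fin 6, i = a ∨ i = b ∨ i = c ∨ i = d ∨ i = e ∨ i = f)
    (hv : Harm T v A) (hTv : T v = {a, b, e, f}) (hvz : dist v z = 1)
    (hyv : y ≠ v) (hyv2 : y + v ≠ 2 * z)
    (hacc : ∃ᶠ g in 𝓝[sphere z 1] y, Arc T z g {c, d}) : A ⊆ T (v + y - z) := by
  intro i hi
  have hcl := h.closed i
  have h1 : Tendsto (fun g : ℂ => v + g - z) (𝓝[sphere z 1] y) (𝓝 (v + y - z)) := by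
    have : Continuous fun g : ℂ => v + g - z := by fun_prop
    exact (this.tendsto y).mono_left nhdsWithin_le_nhds
  have e1 : ∀ᶠ g in 𝓝[sphere z 1] y, g ≠ v := mem_nhdsWithin_of_mem_nhds (isOpen_ne.mem_nhds hyv)
  have e2 : ∀ᶠ g in 𝓝[sphere z 1] y, g + v ≠ 2 * z := by
    have hc : Continuous fun g : ℂ => g + v := by fun_prop
    exact mem_nhdsWithin_of_mem_nhds ((isOpen_ne.preimage hc).mem_nhds hyv2)
  have h2 : ∃ᶠ g in 𝓝[sphere z 1] y, i ∈ T (v + g - z) :=
    (hacc.and_eventually (e1.and e2)).mono fun g hg =>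
      (h.harm_over hall hv hTv hvz hg.1 hg.2.1 hg.2.2).2.2.2 hi
  have h3 : ∃ᶠ x in 𝓝 (v + y - z), x ∈ {x | i ∈ T x} := h1.frequently h2
  exact hcl.mem_of_frequently_of_tendsto h3 tendsto_id

/-- **a `C|e`-end of `S(z)` over a harmless `v` whose arc pair contains `e`** -/
theorem Irr.harm_end (h : Irr U T) {z v y : ℂ} {a b c d e f : Fin 6} {A : Set (Fin 6)}
    (hall : ∀ i : Fin 6, i = a ∨ i = b ∨ i = c ∨ i = d ∨ i = e ∨ i = f)
    (hz : DPt T z a b c d) (hv : Harm T v A) (hTv : T v = {a, b, e, f}) (hvz : dist v z = 1)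
    (hyz : dist y z = 1) (hcd : c ∈ T y ∧ d ∈ T y) (he : e ∈ T y) (hTy : (T y).ncard ≤ 3)
    (heA : e ∈ A) (hacc : ∃ᶠ g in 𝓝[sphere z 1] y, Arc T z g {c, d}) :
    A ⊆ T (v + y - z) ∧ ¬ T (v + y - z) ⊆ T v ∧ 4 ≤ (T (v + y - z)).ncard := by
  have hca : c ∉ T v := by
    intro hc
    have h1 : ({c, a, b, e, f} : Set (Fin 6)) ⊆ T v := by
      rw [hTv]
      rw [hTv] at hc
      intro i hi
      simp only [mem_insert_iff, mem_singleton_iff] at hi hc ⊢
      rcases hi with rfl | hi
      · exact hc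
      · exact hi
    -- then `d` is the only colour missing from `T v`, so `T v` would have at most four elements
    have h2 : (univ : Set (Fin 6)) ⊆ T v ∪ {d} := by
      intro i _
      rw [hTv]
      rcases hall i with rfl | rfl | rfl | rfl | rfl | rfl
      · simp
      · simp
      · left; rw [← hTv]; exact h1 (by simp)
      · simp
      · simp
      · simp
    have h3 := Set.ncard_le_ncard h2 (Set.toFinite _)
    have h4 := Set.ncard_union_le (T v) ({d} : Set (Fin 6))
    rw [Set.ncard_univ, Nat.card_fin] at h3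
    rw [Set.ncard_singleton, hv.card] at h4
    omega
  have hyv : y ≠ v := by rintro rfl; exact hca hcd.1
  have hyv2 : y + v ≠ 2 * z := by
    intro h1
    have h2 : y = 2 * z - v := by linear_combination h1
    refine h.anti hz hvz (h.sub _ (by rw [hTv]; simp)) (h.sub _ (by rw [hTv]; simp)) ?_ ?_
    · rw [← h2]; exact h.sub _ hcd.1
    · rw [← h2]; exact h.sub _ hcd.2
  have hAs := h.harm_over_lim hall hv hTv hvz hyv hyv2 hacc
  obtain ⟨hpv, hpy⟩ := pos_line hvz hyz
  have hoff : ¬ (y = v ∨ y + v = 2 * (v + y - z)) := by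
    rintro (h1 | h1)
    · exact hyv h1
    · exact hyv2 (by linear_combination -h1)
  -- the other colour of `A`
  obtain ⟨s, hs, hse, hAe⟩ : ∃ s ∈ A, s ≠ e ∧ A = {e, s} := by
    obtain ⟨x, x', hxx, hA⟩ := Set.ncard_eq_two.1 hv.cardA
    rw [hA] at heA
    rcases heA with rfl | h1
    · exact ⟨x', by rw [hA]; simp, hxx.symm, hA⟩
    · rw [mem_singleton_iff] at h1
      subst h1
      exact ⟨x, by rw [hA]; simp, hxx, by rw [hA, pair_comm]⟩
  have hnv : ¬ T (v + y - z) ⊆ T v := by
    intro hsub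
    -- `e` on the whole circle `S(v)` near the point
    have h1 : ∀ᶠ q in 𝓝[sphere v 1] (v + y - z), e ∈ Pal U q := by
      filter_upwards [mem_nhdsWithin_of_mem_nhds (h.nhd (v + y - z)), self_mem_nhdsWithin]
        with q h2 h3
      exact h.sub q (hv.h1 q h3 (h2.trans hsub) heA)
    exact hoff (h.mx.partner_line hpv h1 hpy (h.sub _ he))
  refine ⟨hAs, hnv, ?_⟩
  by_contra hcon
  have h3 : (T (v + y - z)).ncard ≤ 3 := by omega
  -- a third colour in `c, d`
  obtain ⟨x, hx, hxv⟩ := Set.not_subset.1 hnv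
  have hxcd : x = c ∨ x = d := by
    rw [hTv] at hxv
    rcases hall x with rfl | rfl | rfl | rfl | rfl | rfl
    · exact absurd (by simp) hxv
    · exact absurd (by simp) hxv
    · exact Or.inl rfl
    · exact Or.inr rfl
    · exact absurd (by simp) hxv
    · exact absurd (by simp) hxv
  have hxy : x ∈ T y := by rcases hxcd with rfl | rfl; exacts [hcd.1, hcd.2]
  have hxA : x ∉ A := fun h1 => hxv (hv.sub h1)
  have h4 : T (v + y - z) = insert x A := by
    symm
    refine Set.eq_of_subset_of_ncard_le (insert_subset hx hAs) ?_ (Set.toFinite _)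
    rw [Set.ncard_insert_of_notMem hxA (Set.toFinite _), hv.cardA]
    exact h3
  have h5 : T (v + y - z) ⊆ insert s (T y) := by
    rw [h4, hAe]
    intro i hi
    simp only [mem_insert_iff, mem_singleton_iff] at hi
    rcases hi with rfl | rfl | rfl
    · exact Or.inr hxy
    · exact Or.inr he
    · exact Or.inl rfl
  rcases h.lemmaX hpy hTy h5 hpv (h.sub _ (hv.sub hs)) with h6 | h6
  · exact hoff (Or.inl h6.symm)
  · exact hoff (Or.inr (by linear_combination h6))

end Vale.Agent.P032.Six
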